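import Vale.Agent.Lib.P157.Main

open MeasureTheory Filter Topology

/-- Gaussian perceptron on the Ising cube: for every finite positive measure `μ` on `ℝ` of total mass
`< 1`, every `c > 0` and every `α > 0`, the expected pressure with `⌊α N⌋` patterns and log-potential
`f(u) = log (c (1 - ∫ cos(ξ u) dμ(ξ)))` converges as `N → ∞`. -/
theorem Vale.Agent.Results.P157.A_limit.result (μ : Measure ℝ) [IsFiniteMeasure μ]
    (hμ : μ.real Set.univ < 1) (c : ℝ) (hc : 0 < c) (α : ℝ) (hα : 0 < α) :
    ∃ L : ℝ, Tendsto (fun N : ℕ => P157.expectedPressure (P157.logPot μ c) α N) atTop (𝓝 L) :=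
  P157.main μ hμ c hc α hα
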