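import Vale.Agent.Lib.P157.Phase

open MeasureTheory Filter Topology

/-- Gaussian perceptron on the Ising cube, sign-indefinite weak potentials. Let `μ` be a finite positive
measure on `ℝ` with `∫ ξ² dμ < ∞`, let `w, θ` be measurable with `|w| ≤ 1`, and
`y(u) = ∫ w(ξ) cos(ξ u + θ(ξ)) dμ(ξ)`, `a₂ = ∫ w cos θ · ξ² e^{-ξ²/2} dμ`, `σ = ∫ |w sin θ| ξ² dμ`,
`s₂ = ∫ ξ² dμ`, `m = μ(ℝ)`.

(1) If `m < 1` and `s₂² ((1-m)^{-2} - 1) ≤ a₂² - σ²/2`, then for all `c > 0` and `α > 0` the expected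
pressure with log-potential `f = log (c (1 - y))` converges.

(2) If `σ²/2 < a₂²`, there is `ε₀ > 0` such that for all real `ε` with `|ε| < ε₀` (of either sign), all
`c > 0` and all `α > 0` the expected pressure with `f = log (c (1 - ε y))` converges. -/
theorem Vale.Agent.Results.P157.B_weak.result (μ : Measure ℝ) [IsFiniteMeasure μ] (w θ : ℝ → ℝ)
    (hw : Measurable w) (hθ : Measurable θ) (hw1 : ∀ ξ, |w ξ| ≤ 1)
    (hsq : Integrable (fun ξ => ξ ^ 2) μ) :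
    (μ.real Set.univ < 1 →
      (∫ ξ, ξ ^ 2 ∂μ) ^ 2 * (1 / (1 - μ.real Set.univ) ^ 2 - 1)
        ≤ (P157.Phase.a2 μ w θ) ^ 2 - (P157.Phase.sg μ w θ) ^ 2 / 2 →
      ∀ c : ℝ, 0 < c → ∀ α : ℝ, 0 < α → ∃ L : ℝ, Tendsto (fun N : ℕ =>
        P157.expectedPressure (fun u => Real.log (c * (1 - P157.Phase.yPh μ w θ u))) α N) atTop (𝓝 L)) ∧
    ((P157.Phase.sg μ w θ) ^ 2 / 2 < (P157.Phase.a2 μ w θ) ^ 2 →
      ∃ ε₀ > 0, ∀ ε : ℝ, |ε| < ε₀ → ∀ c : ℝ, 0 < c → ∀ α : ℝ, 0 < α → ∃ L : ℝ, Tendsto (fun N : ℕ =>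
        P157.expectedPressure (fun u => Real.log (c * (1 - ε * P157.Phase.yPh μ w θ u))) α N)
          atTop (𝓝 L)) := by
  have hs : P157.Phase.Spec μ w θ := ⟨hw, hθ, hw1, hsq⟩
  exact ⟨fun hμ hcond c hc α hα => P157.Phase.limit_criterion hs hμ hcond c hc α hα,
    fun hd => P157.Phase.limit_small hs hd⟩
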